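import Vale.Agent.P043.T2.Defs

/-! Row INT: equality of the counts, from domination (unfolding over the parallelogram of periods). -/

namespace Vale.Agent.P043.T2.H10

open MeasureTheory Set
open scoped ENNReal

/-- first coordinate in the basis `v, w` -/
noncomputable def cs (v w p : ℝ × ℝ) : ℝ := (p.1 * w.2 - p.2 * w.1) / (v.1 * w.2 - v.2 * w.1)
/-- second coordinate in the basis `v, w` -/
noncomputable def cr (v w p : ℝ × ℝ) : ℝ := (v.1 * p.2 - v.2 * p.1) / (v.1 * w.2 - v.2 * w.1)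

/-- The half-open parallelogram. -/
def F (v w : ℝ × ℝ) : Set (ℝ × ℝ) :=
  {p | (0 ≤ cs v w p ∧ cs v w p < 1) ∧ (0 ≤ cr v w p ∧ cr v w p < 1)}

/-- the lattice point with coordinates `m, n` -/
def lat (v w : ℝ × ℝ) (m n : ℤ) : ℝ × ℝ := (m * v.1 + n * w.1, m * v.2 + n * w.2)

section
variable {v w : ℝ × ℝ}

theorem cs_add (p q : ℝ × ℝ) : cs v w (p + q) = cs v w p + cs v w q := by
  unfold cs; rw [← add_div]; congr 1; simp only [Prod.fst_add, Prod.snd_add]; ring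

theorem cr_add (p q : ℝ × ℝ) : cr v w (p + q) = cr v w p + cr v w q := by
  unfold cr; rw [← add_div]; congr 1; simp only [Prod.fst_add, Prod.snd_add]; ring

theorem cs_lat (hD : v.1 * w.2 - v.2 * w.1 ≠ 0) (m n : ℤ) : cs v w (lat v w m n) = m := by
  unfold cs lat; rw [div_eq_iff hD]; simp only; ring

theorem cr_lat (hD : v.1 * w.2 - v.2 * w.1 ≠ 0) (m n : ℤ) : cr v w (lat v w m n) = n := by
  unfold cr lat; rw [div_eq_iff hD]; simp only; ring

theorem mem_F {p : ℝ × ℝ} : p ∈ F v w ↔ ⌊cs v w p⌋ = 0 ∧ ⌊cr v w p⌋ = 0 := by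
  simp only [F, mem_ofPred_eq, Int.floor_eq_zero_iff, mem_Ico]

theorem inv_one {A : Set (ℝ × ℝ)} {u : ℝ × ℝ} (h : ∀ a, u + a ∈ A ↔ a ∈ A) (n : ℤ) :
    ∀ a, ((n : ℝ) * u.1, (n : ℝ) * u.2) + a ∈ A ↔ a ∈ A := by
  induction n using Int.induction_on with
  | zero =>
    intro a
    have : (((0 : ℤ) : ℝ) * u.1, ((0 : ℤ) : ℝ) * u.2) + a = a := by ext <;> simp
    rw [this]
  | succ n ih =>
    intro a
    rw [← h a, ← ih (u + a)]
    have : (((n + 1 : ℤ) : ℝ) * u.1, ((n + 1 : ℤ) : ℝ) * u.2) + a =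
        (((n : ℤ) : ℝ) * u.1, ((n : ℤ) : ℝ) * u.2) + (u + a) := by
      ext <;> simp <;> ring
    rw [this]
  | pred n ih =>
    intro a
    rw [← h (((((-n - 1 : ℤ)) : ℝ) * u.1, (((-n - 1 : ℤ)) : ℝ) * u.2) + a), ← ih a]
    have : u + (((((-n - 1 : ℤ)) : ℝ) * u.1, (((-n - 1 : ℤ)) : ℝ) * u.2) + a) =
        (((-n : ℤ) : ℝ) * u.1, ((-n : ℤ) : ℝ) * u.2) + a := by
      ext <;> simp <;> ring
    rw [this]

theorem inv_lat {A : Set (ℝ × ℝ)} (hv : ∀ a, v + a ∈ A ↔ a ∈ A) (hw : ∀ a, w + a ∈ A ↔ a ∈ A)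
    (m n : ℤ) (a : ℝ × ℝ) : a + lat v w m n ∈ A ↔ a ∈ A := by
  rw [← inv_one hv m a, ← inv_one hw n (((m : ℝ) * v.1, (m : ℝ) * v.2) + a)]
  have : a + lat v w m n = ((n : ℝ) * w.1, (n : ℝ) * w.2) + (((m : ℝ) * v.1, (m : ℝ) * v.2) + a) := by
    unfold lat; ext <;> simp <;> ring
  rw [this]

theorem floor_cs_add (hD : v.1 * w.2 - v.2 * w.1 ≠ 0) (p : ℝ × ℝ) (m n : ℤ) :
    ⌊cs v w (p + lat v w m n)⌋ = ⌊cs v w p⌋ + m := by
  rw [cs_add, cs_lat hD, Int.floor_add_intCast]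

theorem floor_cr_add (hD : v.1 * w.2 - v.2 * w.1 ≠ 0) (p : ℝ × ℝ) (m n : ℤ) :
    ⌊cr v w (p + lat v w m n)⌋ = ⌊cr v w p⌋ + n := by
  rw [cr_add, cr_lat hD, Int.floor_add_intCast]

/-- the representative in the parallelogram -/
noncomputable def red (v w p : ℝ × ℝ) : ℝ × ℝ := p + lat v w (-⌊cs v w p⌋) (-⌊cr v w p⌋)

theorem lat_add (m n m' n' : ℤ) : lat v w m n + lat v w m' n' = lat v w (m + m') (n + n') := by
  unfold lat; ext <;> simp <;> ring

theorem lat_zero : lat v w 0 0 = 0 := by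
  unfold lat; ext <;> simp

theorem red_add (hD : v.1 * w.2 - v.2 * w.1 ≠ 0) (p : ℝ × ℝ) (m n : ℤ) :
    red v w (p + lat v w m n) = red v w p := by
  unfold red
  rw [floor_cs_add hD, floor_cr_add hD, add_assoc, lat_add]
  congr 2 <;> ring

theorem red_mem (hD : v.1 * w.2 - v.2 * w.1 ≠ 0) (p : ℝ × ℝ) : red v w p ∈ F v w := by
  rw [mem_F]; unfold red; rw [floor_cs_add hD, floor_cr_add hD]; simp

/-- the count of `A` in a translate of the parallelogram does not depend on the translate -/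
theorem cnt_const (hD : v.1 * w.2 - v.2 * w.1 ≠ 0) {A : Set (ℝ × ℝ)}
    (hv : ∀ a, v + a ∈ A ↔ a ∈ A) (hw : ∀ a, w + a ∈ A ↔ a ∈ A) (c : ℝ × ℝ) :
    ∑' a : A, (F v w).indicator (fun _ => (1 : ℝ≥0∞)) (c + a) =
      ∑' a : A, (F v w).indicator (fun _ => (1 : ℝ≥0∞)) (a : ℝ × ℝ) := by
  classical
  let g : ℝ × ℝ → ℤ × ℤ := fun a => (⌊cs v w (c + red v w a)⌋, ⌊cr v w (c + red v w a)⌋)
  have hg : ∀ a m n, g (a + lat v w m n) = g a := by
    intro a m n; simp only [g, red_add hD]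
  let e : A ≃ A :=
    { toFun := fun a => ⟨(a : ℝ × ℝ) + lat v w (g a).1 (g a).2, (inv_lat hv hw _ _ _).2 a.2⟩
      invFun := fun a => ⟨(a : ℝ × ℝ) + lat v w (-(g a).1) (-(g a).2), (inv_lat hv hw _ _ _).2 a.2⟩
      left_inv := by
        intro a
        apply Subtype.ext
        show ((a : ℝ × ℝ) + lat v w (g a).1 (g a).2) +
          lat v w (-(g ((a : ℝ × ℝ) + lat v w (g a).1 (g a).2)).1)
            (-(g ((a : ℝ × ℝ) + lat v w (g a).1 (g a).2)).2) = a
        rw [hg, add_assoc, lat_add, add_neg_cancel, add_neg_cancel, lat_zero, add_zero]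
      right_inv := by
        intro a
        apply Subtype.ext
        show ((a : ℝ × ℝ) + lat v w (-(g a).1) (-(g a).2)) +
          lat v w ((g ((a : ℝ × ℝ) + lat v w (-(g a).1) (-(g a).2))).1)
            ((g ((a : ℝ × ℝ) + lat v w (-(g a).1) (-(g a).2))).2) = a
        rw [hg, add_assoc, lat_add, neg_add_cancel, neg_add_cancel, lat_zero, add_zero] }
  rw [← e.tsum_eq (fun a : A => (F v w).indicator (fun _ => (1 : ℝ≥0∞)) (a : ℝ × ℝ))]
  apply tsum_congr
  intro a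
  have hiff : c + (a : ℝ × ℝ) ∈ F v w ↔ ((e a : A) : ℝ × ℝ) ∈ F v w := by
    have h1 : ((e a : A) : ℝ × ℝ) = (a : ℝ × ℝ) + lat v w (g a).1 (g a).2 := rfl
    have h2 : c + (a : ℝ × ℝ) = (c + red v w a) + lat v w ⌊cs v w a⌋ ⌊cr v w a⌋ := by
      unfold red; rw [add_assoc, add_assoc, lat_add, neg_add_cancel, neg_add_cancel, lat_zero,
        add_zero]
    rw [h1, h2, mem_F, mem_F, floor_cs_add hD, floor_cr_add hD, floor_cs_add hD, floor_cr_add hD]
    simp only [g]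
    rw [add_comm ⌊cs v w (c + red v w a)⌋, add_comm ⌊cr v w (c + red v w a)⌋]
  by_cases h : c + (a : ℝ × ℝ) ∈ F v w
  · rw [indicator_of_mem h, indicator_of_mem (hiff.1 h)]
  · rw [indicator_of_notMem h, indicator_of_notMem (fun h' => h (hiff.2 h'))]

theorem measF : MeasurableSet (F v w) := by
  have h1 : Measurable (cs v w) := by unfold cs; fun_prop
  have h2 : Measurable (cr v w) := by unfold cr; fun_prop
  have : F v w = cs v w ⁻¹' Ico 0 1 ∩ cr v w ⁻¹' Ico 0 1 := by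
    ext p; simp [F]
  rw [this]
  exact (h1 measurableSet_Ico).inter (h2 measurableSet_Ico)

theorem volF (hD : v.1 * w.2 - v.2 * w.1 ≠ 0) : volume (F v w) < ∞ := by
  have hsub : F v w ⊆ Metric.closedBall (0 : ℝ × ℝ) (|v.1| + |w.1| + |v.2| + |w.2|) := by
    intro p hp
    obtain ⟨⟨h1, h2⟩, h3, h4⟩ := hp
    have e1 : p.1 = cs v w p * v.1 + cr v w p * w.1 := by
      unfold cs cr
      rw [div_mul_eq_mul_div, div_mul_eq_mul_div, ← add_div, eq_div_iff hD]; ring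
    have e2 : p.2 = cs v w p * v.2 + cr v w p * w.2 := by
      unfold cs cr
      rw [div_mul_eq_mul_div, div_mul_eq_mul_div, ← add_div, eq_div_iff hD]; ring
    have b1 : |p.1| ≤ |v.1| + |w.1| := by
      rw [e1]
      refine (abs_add_le _ _).trans ?_
      rw [abs_mul, abs_mul, abs_of_nonneg h1, abs_of_nonneg h3]
      have := abs_nonneg v.1
      have := abs_nonneg w.1
      nlinarith
    have b2 : |p.2| ≤ |v.2| + |w.2| := by
      rw [e2]
      refine (abs_add_le _ _).trans ?_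
      rw [abs_mul, abs_mul, abs_of_nonneg h1, abs_of_nonneg h3]
      have := abs_nonneg v.2
      have := abs_nonneg w.2
      nlinarith
    rw [Metric.mem_closedBall, dist_zero_right, Prod.norm_def]
    have := abs_nonneg v.1
    have := abs_nonneg w.1
    have := abs_nonneg v.2
    have := abs_nonneg w.2
    simp only [Real.norm_eq_abs]
    exact max_le (by linarith) (by linarith)
  exact (measure_mono hsub).trans_lt measure_closedBall_lt_top

end

/-- product cell of the row type `k` -/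
def S (t : ℝ) (k : Fin 5) (i : Ix) : Set (ℝ × ℝ) :=
  E t k i ×ˢ Ico (rw k i : ℝ) (rw k i + 1 / 20)

/-- smeared count -/
noncomputable def f (t : ℝ) (A : Set (ℝ × ℝ)) (k : Fin 5) (p : ℝ × ℝ) : ℝ≥0∞ :=
  ∑' i : Ix, ∑' a : A, (S t k i).indicator (fun _ => (1 : ℝ≥0∞)) (p - a)

theorem measS (hMe : StMe) (t : ℝ) (k : Fin 5) (i : Ix) : MeasurableSet (S t k i) :=
  ((hMe t).1 k i).prod measurableSet_Ico

theorem volS (hMe : StMe) (t : ℝ) (k : Fin 5) (i : Ix) :
    volume (S t k i) = ENNReal.ofReal (1 / 44100) * ENNReal.ofReal (1 / 20) := by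
  unfold S
  rw [Measure.volume_eq_prod, Measure.prod_prod, (hMe t).2.1 k i, Real.volume_Ico]
  congr 2; ring

theorem countA (hSep : StSep) {t : ℝ} (ht : Good t) {A : Set (ℝ × ℝ)} (hA : Tiles2 (Om t) A) :
    A.Countable := by
  have hal : 0 < al := by unfold al; norm_num
  let φ : ℝ × ℝ → ℤ × ℤ := fun a => (⌊a.1 / al⌋, ⌊a.2 * 200⌋)
  have hφ : InjOn φ A := by
    intro a ha b hb hab
    by_contra hne
    have h1 : ⌊a.1 / al⌋ = ⌊b.1 / al⌋ := congrArg Prod.fst hab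
    have h2 : ⌊a.2 * 200⌋ = ⌊b.2 * 200⌋ := congrArg Prod.snd hab
    rcases hSep t ht A hA a ha b hb hne with h | h
    · have h3 := Int.abs_sub_lt_one_of_floor_eq_floor h1
      rw [← sub_div, abs_div, abs_of_pos hal, div_lt_one hal] at h3
      linarith
    · have h3 := Int.abs_sub_lt_one_of_floor_eq_floor h2
      rw [← sub_mul, abs_mul, abs_of_pos (by norm_num : (0:ℝ) < 200)] at h3
      linarith
  exact (mapsTo_univ φ A).countable_of_injOn hφ countable_univ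

theorem measf (hMe : StMe) (t : ℝ) {A : Set (ℝ × ℝ)} (hc : A.Countable) (k : Fin 5) :
    Measurable (f t A k) := by
  have : Countable A := hc.to_subtype
  unfold f
  refine Measurable.tsum fun i => Measurable.tsum fun a => ?_
  exact (measurable_const.indicator (measS hMe t k i)).comp (measurable_id.sub_const _)

/-- unfolding -/
theorem int_f (hMe : StMe) (t : ℝ) {A : Set (ℝ × ℝ)} (hc : A.Countable) {v w : ℝ × ℝ}
    (hD : v.1 * w.2 - v.2 * w.1 ≠ 0) (hv : ∀ a, v + a ∈ A ↔ a ∈ A)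
    (hw : ∀ a, w + a ∈ A ↔ a ∈ A) (k : Fin 5) (c : ℝ × ℝ) :
    ∫⁻ p : ℝ × ℝ, (F v w).indicator (fun _ => (1 : ℝ≥0∞)) (p + c) * f t A k p =
      ∑' _ : Ix, (∑' a : A, (F v w).indicator (fun _ => (1 : ℝ≥0∞)) (a : ℝ × ℝ)) *
        (ENNReal.ofReal (1 / 44100) * ENNReal.ofReal (1 / 20)) := by
  have : Countable A := hc.to_subtype
  set χ : ℝ × ℝ → ℝ≥0∞ := (F v w).indicator (fun _ => (1 : ℝ≥0∞)) with hχ
  have hχm : Measurable χ := measurable_const.indicator measF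
  have hσm : ∀ i, Measurable ((S t k i).indicator (fun _ => (1 : ℝ≥0∞))) := fun i =>
    measurable_const.indicator (measS hMe t k i)
  have e1 : ∀ p : ℝ × ℝ, χ (p + c) * f t A k p = ∑' i : Ix, ∑' a : A,
      χ (p + c) * (S t k i).indicator (fun _ => (1 : ℝ≥0∞)) (p - a) := by
    intro p
    unfold f
    rw [← ENNReal.tsum_mul_left]
    exact tsum_congr fun i => ENNReal.tsum_mul_left.symm
  simp_rw [e1]
  rw [lintegral_tsum]
  swap
  · intro i
    refine (Measurable.tsum fun a => ?_).aemeasurable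
    exact (hχm.comp (measurable_id.add_const _)).mul ((hσm i).comp (measurable_id.sub_const _))
  apply tsum_congr
  intro i
  rw [lintegral_tsum]
  swap
  · intro a
    exact ((hχm.comp (measurable_id.add_const _)).mul
      ((hσm i).comp (measurable_id.sub_const _))).aemeasurable
  have e2 : ∀ a : A, ∫⁻ p : ℝ × ℝ, χ (p + c) *
      (S t k i).indicator (fun _ => (1 : ℝ≥0∞)) (p - a) =
      ∫⁻ p : ℝ × ℝ, χ ((p + c) + a) * (S t k i).indicator (fun _ => (1 : ℝ≥0∞)) p := by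
    intro a
    rw [← lintegral_add_right_eq_self (fun p : ℝ × ℝ => χ (p + c) *
      (S t k i).indicator (fun _ => (1 : ℝ≥0∞)) (p - a)) (a : ℝ × ℝ)]
    apply lintegral_congr
    intro p
    rw [add_sub_cancel_right, add_right_comm]
  simp_rw [e2]
  rw [← lintegral_tsum]
  swap
  · intro a
    exact ((hχm.comp ((measurable_id.add_const _).add_const _)).mul (hσm i)).aemeasurable
  have e3 : ∀ p : ℝ × ℝ, ∑' a : A, χ ((p + c) + a) *
      (S t k i).indicator (fun _ => (1 : ℝ≥0∞)) p =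
      (∑' a : A, χ (a : ℝ × ℝ)) * (S t k i).indicator (fun _ => (1 : ℝ≥0∞)) p := by
    intro p
    rw [ENNReal.tsum_mul_right, hχ, cnt_const hD hv hw]
  simp_rw [e3]
  rw [lintegral_const_mul _ (hσm i), lintegral_indicator_const (measS hMe t k i), volS hMe]
  simp

/-- good lines -/
def GoodL (t : ℝ) (A : Set (ℝ × ℝ)) (x : ℝ) : Prop :=
  ∀ y : ℝ, ∃! q : Fin 9 × ((ℝ × ℝ) × Ix),
      q.2.1 ∈ A ∧ x - q.2.1.1 ∈ E t (sty q.1) q.2.2 ∧
        y - q.2.1.2 - (rw (sty q.1) q.2.2 : ℝ) ∈ II q.1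

theorem sty_surj (k : Fin 5) : ∃ j : Fin 9, sty j = k ∧ lo j + 10 ≤ hi j := by
  fin_cases k
  · exact ⟨0, by decide⟩
  · exact ⟨1, by decide⟩
  · exact ⟨3, by decide⟩
  · exact ⟨5, by decide⟩
  · exact ⟨7, by decide⟩

theorem GoodL.uniq {t : ℝ} {A : Set (ℝ × ℝ)} {x : ℝ} (h : GoodL t A x) {k : Fin 5} {v : ℝ}
    {a b : ℝ × ℝ} {i i' : Ix} (ha : a ∈ A) (hb : b ∈ A)
    (h1 : (x, v) - a ∈ S t k i) (h2 : (x, v) - b ∈ S t k i') : a = b ∧ i = i' := by
  obtain ⟨j, hj, hl⟩ := sty_surj k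
  have hl' : (lo j : ℝ) + 10 ≤ hi j := by exact_mod_cast hl
  obtain ⟨q, -, hq⟩ := h (v + (lo j : ℝ) / 200)
  have key : ∀ (a : ℝ × ℝ) (i : Ix), a ∈ A → (x, v) - a ∈ S t k i → (j, (a, i)) = q := by
    intro a i ha h1
    apply hq
    obtain ⟨h3, h4, h5⟩ := h1
    simp only [Prod.fst_sub, Prod.snd_sub] at h3 h4 h5
    refine ⟨ha, ?_, ?_, ?_⟩
    · show x - a.1 ∈ E t (sty j) i
      rw [hj]; exact h3
    · show (lo j : ℝ) / 200 ≤ v + (lo j : ℝ) / 200 - a.2 - (rw (sty j) i : ℝ)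
      rw [hj]; linarith
    · show v + (lo j : ℝ) / 200 - a.2 - (rw (sty j) i : ℝ) < (hi j : ℝ) / 200
      rw [hj]; linarith
  have e := (key a i ha h1).trans (key b i' hb h2).symm
  simp only [Prod.mk.injEq, true_and] at e
  exact e

theorem f_ge {t : ℝ} {A : Set (ℝ × ℝ)} {k : Fin 5} {p : ℝ × ℝ} {a : ℝ × ℝ} {i : Ix}
    (ha : a ∈ A) (h : p - a ∈ S t k i) : 1 ≤ f t A k p := by
  unfold f
  calc (1 : ℝ≥0∞) = (S t k i).indicator (fun _ => (1 : ℝ≥0∞)) (p - ((⟨a, ha⟩ : A) : ℝ × ℝ)) := by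
        rw [indicator_of_mem h]
    _ ≤ ∑' a : A, (S t k i).indicator (fun _ => (1 : ℝ≥0∞)) (p - a) :=
        ENNReal.le_tsum (f := fun a : A => (S t k i).indicator (fun _ => (1 : ℝ≥0∞)) (p - a)) _
    _ ≤ _ := ENNReal.le_tsum
        (f := fun i : Ix => ∑' a : A, (S t k i).indicator (fun _ => (1 : ℝ≥0∞)) (p - a)) i

theorem f_ne {t : ℝ} {A : Set (ℝ × ℝ)} {k : Fin 5} {p : ℝ × ℝ} (h : f t A k p ≠ 0) :
    ∃ a ∈ A, ∃ i, p - a ∈ S t k i := by
  by_contra hc
  push Not at hc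
  apply h
  unfold f
  simp only [ENNReal.tsum_eq_zero]
  intro i a
  exact indicator_of_notMem (hc a a.2 i) _

theorem f_le {t : ℝ} {A : Set (ℝ × ℝ)} {x : ℝ} (h : GoodL t A x) (k : Fin 5) (v : ℝ) :
    f t A k (x, v) ≤ 1 := by
  by_cases h0 : f t A k (x, v) = 0
  · rw [h0]; exact zero_le_one
  · obtain ⟨a, ha, i, hi⟩ := f_ne h0
    unfold f
    rw [tsum_eq_single i]
    · rw [tsum_eq_single ⟨a, ha⟩]
      · exact indicator_le' (fun _ _ => le_rfl) (fun _ _ => zero_le_one) _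
      · intro b hb
        apply indicator_of_notMem
        intro hb'
        exact hb (Subtype.ext (h.uniq b.2 ha hb' hi).1)
    · intro i' hi'
      rw [ENNReal.tsum_eq_zero]
      intro b
      apply indicator_of_notMem
      intro hb'
      exact hi' (h.uniq b.2 ha hb' hi).2

theorem int_of (hLin : StLin) (hSep : StSep) (hMe : StMe) : StInt := by
  intro t ht A hA hPer hdom
  obtain ⟨v, w, hD, hv, hw⟩ := hPer
  have hc := countA hSep ht hA
  have hL : ∀ᵐ x : ℝ, GoodL t A x := hLin t ht A hA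
  -- domination, line-wise
  have hdom' : ∀ᵐ x : ℝ, ∀ (k : Fin 5) (y : ℝ), f t A 0 (x, y) ≤ f t A k (x, y) := by
    filter_upwards [hL, hdom] with x hx hd k y
    by_cases h0 : f t A 0 (x, y) = 0
    · rw [h0]; exact bot_le
    · obtain ⟨a, ha, i, h3, h4⟩ := f_ne h0
      simp only [Prod.fst_sub, Prod.snd_sub] at h3 h4
      obtain ⟨q, hq1, hq2, hq3⟩ := hd (a.2 + (rw 0 i : ℝ)) k ⟨(a, i), ha, rfl, h3⟩
      refine (f_le hx 0 y).trans (f_ge (a := q.1) (i := q.2) hq1 ⟨hq3, ?_⟩)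
      simp only [Prod.snd_sub, mem_Ico]
      obtain ⟨h5, h6⟩ := h4
      constructor <;> linarith
  have hdom2 : ∀ᵐ p : ℝ × ℝ, ∀ k : Fin 5, f t A 0 p ≤ f t A k p := by
    have := Measure.quasiMeasurePreserving_fst (μ := (volume : Measure ℝ))
      (ν := (volume : Measure ℝ)) |>.ae hdom'
    rw [← Measure.volume_eq_prod] at this
    filter_upwards [this] with p hp k
    exact hp k p.2
  have hle2 : ∀ᵐ p : ℝ × ℝ, ∀ k : Fin 5, f t A k p ≤ 1 := by
    have := Measure.quasiMeasurePreserving_fst (μ := (volume : Measure ℝ))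
      (ν := (volume : Measure ℝ)) |>.ae hL
    rw [← Measure.volume_eq_prod] at this
    filter_upwards [this] with p hp k
    exact f_le hp k p.2
  set χ : ℝ × ℝ → ℝ≥0∞ := (F v w).indicator (fun _ => (1 : ℝ≥0∞)) with hχ
  have hχm : Measurable χ := measurable_const.indicator measF
  have heq : ∀ (k : Fin 5) (c : ℝ × ℝ),
      (fun p => χ (p + c) * f t A 0 p) =ᵐ[volume] fun p => χ (p + c) * f t A k p := by
    intro k c
    apply ae_eq_of_ae_le_of_lintegral_le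
    · filter_upwards [hdom2] with p hp
      exact mul_le_mul' le_rfl (hp k)
    · have h1 : ∫⁻ p : ℝ × ℝ, χ (p + c) * f t A 0 p ≤ ∫⁻ p : ℝ × ℝ, χ (p + c) := by
        apply lintegral_mono_ae
        filter_upwards [hle2] with p hp
        calc χ (p + c) * f t A 0 p ≤ χ (p + c) * 1 := mul_le_mul' le_rfl (hp 0)
          _ = _ := mul_one _
      rw [lintegral_add_right_eq_self χ c, hχ, lintegral_indicator_const measF, one_mul] at h1
      exact ne_of_lt (h1.trans_lt (volF hD))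
    · exact ((hχm.comp (measurable_id.add_const _)).mul (measf hMe t hc k)).aemeasurable
    · rw [int_f hMe t hc hD hv hw k c, int_f hMe t hc hD hv hw 0 c]
  have hall : ∀ᵐ p : ℝ × ℝ, ∀ k : Fin 5, f t A 0 p = f t A k p := by
    have h1 : ∀ᵐ p : ℝ × ℝ, ∀ (k : Fin 5) (m n : ℤ),
        χ (p + lat v w m n) * f t A 0 p = χ (p + lat v w m n) * f t A k p := by
      rw [ae_all_iff]; intro k
      rw [ae_all_iff]; intro m
      rw [ae_all_iff]; intro n
      exact heq k (lat v w m n)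
    filter_upwards [h1] with p hp k
    have h2 := hp k (-⌊cs v w p⌋) (-⌊cr v w p⌋)
    have h3 : p + lat v w (-⌊cs v w p⌋) (-⌊cr v w p⌋) ∈ F v w := red_mem hD p
    rw [hχ, indicator_of_mem h3, one_mul, one_mul] at h2
    exact h2
  rw [Measure.volume_eq_prod] at hall
  have hall' := Measure.ae_ae_of_ae_prod hall
  filter_upwards [hL, hdom, hall'] with x hx hd hf y k hk
  obtain ⟨q, hq1, hq2, hq3⟩ := hk
  -- choose a height
  have hpos : volume (Ico y (y + 1 / 20)) ≠ 0 := by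
    rw [Real.volume_Ico]; simp
  obtain ⟨z, hz1, hz2⟩ : ∃ z ∈ Ico y (y + 1 / 20), ∀ k : Fin 5, f t A 0 (x, z) = f t A k (x, z) := by
    by_contra hcon
    push Not at hcon
    apply hpos
    refine measure_mono_null ?_ (ae_iff.1 hf)
    intro z hz
    obtain ⟨k', hk'⟩ := hcon z hz
    simp only [mem_ofPred_eq]
    exact fun h => hk' (h k')
  have hqS : (x, z) - q.1 ∈ S t k q.2 := by
    refine ⟨hq3, ?_⟩
    simp only [Prod.snd_sub, mem_Ico]
    obtain ⟨h5, h6⟩ := hz1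
    constructor <;> linarith
  have h1 : 1 ≤ f t A k (x, z) := f_ge hq1 hqS
  rw [← hz2 k] at h1
  obtain ⟨b, hb, i, hbi⟩ := f_ne (ne_of_gt (lt_of_lt_of_le zero_lt_one h1))
  have hbi' := hbi
  obtain ⟨h3, h4, h5⟩ := hbi
  simp only [Prod.fst_sub, Prod.snd_sub] at h3 h4 h5
  have hat : (b, i) ∈ atoms t A 0 x (b.2 + (rw 0 i : ℝ)) := ⟨hb, rfl, h3⟩
  obtain ⟨q', hq'1, hq'2, hq'3⟩ := hd (b.2 + (rw 0 i : ℝ)) k ⟨_, hat⟩
  have hq'S : (x, z) - q'.1 ∈ S t k q'.2 := by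
    refine ⟨hq'3, ?_⟩
    simp only [Prod.snd_sub, mem_Ico]
    constructor <;> linarith
  obtain ⟨e1, e2⟩ := hx.uniq hq1 hq'1 hqS hq'S
  have hy : y = b.2 + (rw 0 i : ℝ) := by
    rw [← hq2, ← hq'2, e1, e2]
  rw [hy]
  exact ⟨_, hat⟩

end Vale.Agent.P043.T2.H10
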